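import Vale.Agent.P088.R2.H660.P.Spec
import Vale.Agent.P088.R2.H660.P.Cert

/-!
# P088, stage 3: the flat pass, the second derivatives in the critical slot at a point

`h2_pt`: the structure `H2` from `Geo`, the second derivatives of `u` and `r` and the sizes.
-/

open Set Filter
open scoped ContDiff Topology

noncomputable section

namespace Vale.Agent.P088.R2.H561.P

open Vale.Agent.P088.R2.H961.GW Vale.Agent.P088.R2.H644 Vale.Agent.P088.R2.H960.W
  Vale.Agent.P088.R2.H230.W Vale.Agent.P088.R2.H660.P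

variable {E ι : Type*} [NormedAddCommGroup E] [NormedSpace ℝ E] [Fintype ι]

section ders

variable {σ τ : Sl E ι} {U : Set E} {θ θ' : E → ℝ} {u r s : E → ℝ} {z : E}
  {Φ Φ₁ Φ₂ S S₁ S₂ : ℝ → ℝ} {D : ℕ → ℕ → ℝ → ℝ → ℝ}

/-- The second derivatives of the composed weight. -/
theorem DD_wt (ok : σ.Ok U θ) (ot : τ.Ok U θ') (w : Wd U Φ Φ₁ Φ₂ S S₁ S₂ D u r) (hz : z ∈ U)
    (i j : ι) : σ.D i (τ.D j (wt Φ S D u r)) z =
      Φ₁ (u z) * σ.D i (τ.D j u) z + Φ₂ (u z) * σ.D i u z * τ.D j u z +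
      (D 1 0 (u z + S (r z)) (r z) * (σ.D i (τ.D j u) z +
        (S₁ (r z) * σ.D i (τ.D j r) z + S₂ (r z) * σ.D i r z * τ.D j r z)) +
        D 0 1 (u z + S (r z)) (r z) * σ.D i (τ.D j r) z +
        (D 2 0 (u z + S (r z)) (r z) * ((σ.D i u z + S₁ (r z) * σ.D i r z) *
          (τ.D j u z + S₁ (r z) * τ.D j r z)) +
          D 1 1 (u z + S (r z)) (r z) * ((σ.D i u z + S₁ (r z) * σ.D i r z) * τ.D j r z +
            σ.D i r z * (τ.D j u z + S₁ (r z) * τ.D j r z)) +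
          D 0 2 (u z + S (r z)) (r z) * (σ.D i r z * τ.D j r z))) := by
  have e : σ.D i (τ.D j (wt Φ S D u r)) z = σ.D i (τ.D j (fun z => Φ (u z))) z +
      σ.D i (τ.D j (fun z => D 0 0 (u z + S (r z)) (r z))) z :=
    Ch.DD_add ok ot w.cu.s0 w.cD.s00 i j hz
  have ef : σ.D i (τ.D j (fun z => u z + S (r z))) z = σ.D i (τ.D j u) z +
      (S₁ (r z) * σ.D i (τ.D j r) z + S₂ (r z) * σ.D i r z * τ.D j r z) := by
    rw [Ch.DD_add ok ot w.cu.su w.cr.s0 i j hz, Ch.DD_comp ok ot w.cr i j hz]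
  rw [e, Ch.DD_comp ok ot w.cu i j hz, DD_comp2 ok ot w.cD i j hz, ef, D_f ok w hz, D_f ot w hz]

/-- The second derivatives of a square. -/
theorem DD_sq (ok : σ.Ok U θ) (hr : Sm U r) (hs : ∀ z ∈ U, s z = r z * r z) (hz : z ∈ U)
    (i j : ι) : σ.D i (σ.D j s) z =
      2 * (r z * σ.D i (σ.D j r) z + σ.D i r z * σ.D j r z) := by
  rw [D_congr σ ok.op (fun z hz => D_congr σ ok.op hs j hz) i hz, Ch.DD_mul ok ok hr hr i j hz]
  ring

end ders

section pt

variable [DecidableEq ι] {σ τ : Sl E ι} {u r W : E → ℝ} {e h : ι → ℝ} {z : E}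

omit [DecidableEq ι] in
/-- The directions `h`, `-e`. -/
lemma he_pt {ε g κ G L Φ₁ : ℝ} (Ge : Geo σ τ u r e h ε g z) (hε : ε ≤ 1) (G0 : 0 < G)
    (L1 : 97 / 100 ≤ L) (L2 : L ≤ 103 / 100) (Φ0 : 0 ≤ Φ₁)
    (e1 : gr σ W z = (Φ₁ + G) • gr σ u z + (G * L) • gr σ r z)
    (hw : nn (gr σ W z) + 2 * Φ₁ ≤ 2 * κ * G) : nn (h + e) ≤ 2 * (2 * κ + 4 * ε) := by
  have hφ : nn (ph σ u r L z) ≤ κ := ph_le Ge hε G0 Φ0 e1 hw
  have d1 : nn (e + L • h) ≤ 2 * κ + 4 * ε := by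
    have x1 : e + L • h = (2 : ℝ) • ph σ u r L z - ((gr σ u z - e) + L • (gr σ r z - h)) := by
      unfold ph
      funext i
      simp only [Pi.add_apply, Pi.sub_apply, Pi.smul_apply, smul_eq_mul]
      ring
    rw [x1]
    have x2 := nn_sub_le ((2 : ℝ) • ph σ u r L z) ((gr σ u z - e) + L • (gr σ r z - h))
    have x3 := nn_add_le (gr σ u z - e) (L • (gr σ r z - h))
    have x4 : nn ((2 : ℝ) • ph σ u r L z) ≤ 2 * κ := by
      rw [nn_smul, abs_of_pos (by norm_num : (0:ℝ) < 2)]; linarith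
    have x5 : nn (L • (gr σ r z - h)) ≤ 103 / 100 * ε := by
      rw [nn_smul, abs_of_nonneg (by linarith)]
      exact mul_le_mul L2 Ge.rx (nn_nonneg _) (by norm_num)
    have x6 := Ge.ux
    have ε0 := Ge.ε0
    linarith
  have d2 : |1 - L| ≤ 2 * κ + 4 * ε := by
    have x1 := abs_nn_sub_le (L • h) (-e)
    rw [nn_smul, nn_neg, nn_one Ge.ee, nn_one Ge.hh, abs_of_nonneg (by linarith : 0 ≤ L), mul_one,
      sub_neg_eq_add, add_comm (L • h) e, abs_sub_comm] at x1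
    exact x1.trans d1
  have x1 : h + e = (e + L • h) + (1 - L) • h := by
    funext i
    simp only [Pi.add_apply, Pi.smul_apply, smul_eq_mul]
    ring
  rw [x1]
  have x2 := nn_add_le (e + L • h) ((1 - L) • h)
  rw [nn_smul, nn_one Ge.hh, mul_one] at x2
  linarith

omit [DecidableEq ι] in
/-- The size of `Φ'` at the pass. -/
lemma N_pt {ε g G L Φ₁ t : ℝ} (Ge : Geo σ τ u r e h ε g z) (G0 : 0 < G)
    (L1 : 97 / 100 ≤ L) (L2 : L ≤ 103 / 100) (Φ0 : 0 ≤ Φ₁) (ΦG : Φ₁ ≤ 1 / 100 * G)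
    (e1 : gr σ W z = (Φ₁ + G) • gr σ u z + (G * L) • gr σ r z)
    (t0 : 0 ≤ t) (hw : nn (gr σ W z) ≤ t * (Φ₁ + G)) :
    Φ₁ ≤ (L - 1) * G + (2 * t + 3 * ε) * G := by
  have ε0 := Ge.ε0
  have x1 : (Φ₁ + G) • e + (G * L) • h = gr σ W z - ((Φ₁ + G) • (gr σ u z - e) +
      (G * L) • (gr σ r z - h)) := by
    rw [e1]
    funext i
    simp only [Pi.add_apply, Pi.sub_apply, Pi.smul_apply, smul_eq_mul]
    ring
  have x2 : nn ((Φ₁ + G) • e + (G * L) • h) ≤ t * (Φ₁ + G) + ((Φ₁ + G) * ε + G * L * ε) := by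
    rw [x1]
    refine (nn_sub_le _ _).trans (add_le_add hw ((nn_add_le _ _).trans (add_le_add ?_ ?_)))
    · rw [nn_smul, abs_of_pos (by positivity)]
      exact mul_le_mul_of_nonneg_left Ge.ux (by positivity)
    · rw [nn_smul, abs_of_pos (by positivity)]
      exact mul_le_mul_of_nonneg_left Ge.rx (by positivity)
  have x3 := abs_nn_sub_le ((Φ₁ + G) • e) (-((G * L) • h))
  rw [sub_neg_eq_add, nn_neg, nn_smul, nn_smul, nn_one Ge.ee, nn_one Ge.hh, mul_one, mul_one,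
    abs_of_pos (by positivity : 0 < Φ₁ + G), abs_of_pos (by positivity : 0 < G * L)] at x3
  have x4 := (abs_le.1 (x3.trans x2)).2
  have x5 : t * (Φ₁ + G) ≤ t * (2 * G) := mul_le_mul_of_nonneg_left (by linarith) t0
  have x6 : (Φ₁ + G) * ε ≤ 101 / 100 * G * ε := mul_le_mul_of_nonneg_right (by linarith) ε0
  have x7 : G * L * ε ≤ G * (103 / 100) * ε :=
    mul_le_mul_of_nonneg_right (mul_le_mul_of_nonneg_left L2 G0.le) ε0
  have x8 : 0 ≤ G * ε := by positivity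
  linarith

lemma abs_sub3 {a b c : ℝ} {x y w : ℝ} (ha : |a| ≤ x) (hb : |b| ≤ y) (hc : |c| ≤ w) :
    |a + b + c| ≤ x + y + w :=
  (abs_add_le _ _).trans (add_le_add ((abs_add_le _ _).trans (add_le_add ha hb)) hc)

/-- **The second derivatives in the critical slot.** -/
theorem h2_pt {ε g δ κ G L L₁ Φ₁ Φ₂ ε₂ : ℝ} (Ge : Geo σ τ u r e h ε g z) (G0 : 0 < G)
    (κ0 : 0 < κ) (κ1 : κ ≤ 1 / 100)
    (L1 : 97 / 100 ≤ L) (L2 : L ≤ 103 / 100) (Φ0 : 0 ≤ Φ₁) (Φ2 : 0 ≤ Φ₂)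
    (hb : Φ₂ ≤ 53 / 100 * (G * L / r z))
    (e1 : gr σ W z = (Φ₁ + G) • gr σ u z + (G * L) • gr σ r z)
    (DW : ∀ i j, σ.D i (σ.D j W) z = Φ₁ * σ.D i (σ.D j u) z + Φ₂ * (σ.D i u z * σ.D j u z) +
      G * (σ.D i (σ.D j u) z + L * σ.D i (σ.D j r) z + L₁ * (σ.D i r z * σ.D j r z)) +
      G * ((σ.D i u z + L * σ.D i r z) * (σ.D j u z + L * σ.D j r z)))
    (hw : nn (gr σ W z) + 2 * Φ₁ ≤ 2 * κ * G) (hK : κ * G ≤ G * L / r z)
    (hε2 : 0 < ε₂) (hL₁ : |L₁| ≤ ε₂ / 20 * κ) (hε : ε ≤ ε₂ / 100) (hε1 : ε ≤ 1 / 100)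
    (hδ : δ ≤ ε₂ / 20 * κ) (hκ : κ ≤ ε₂ / 40)
    (hs : ∀ i j, |σ.s i j z - dl i j| ≤ ε₂)
    (hu : ∀ i j, |σ.D i (σ.D j u) z| ≤ δ)
    (hr : ∀ i j, |r z * σ.D i (σ.D j r) z - (dl i j - h i * h j)| ≤ ε₂ / 10) :
    H2 σ W e h (G * L / r z) Φ₂ ε₂ z := by
  have hr0 := Ge.r0
  have ε0 := Ge.ε0
  obtain ⟨K, hKd⟩ : ∃ K, K = G * L / r z := ⟨_, rfl⟩
  rw [← hKd] at hb hK ⊢
  have K0 : 0 < K := lt_of_lt_of_le (by positivity) hK
  have ΦG : Φ₁ ≤ κ * G := by
    have := nn_nonneg (gr σ W z)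
    linarith
  have aU : ∀ i, |σ.D i u z - e i| ≤ ε := fun i => (abs_le_nn (gr σ u z - e) i).trans Ge.ux
  have aR : ∀ i, |σ.D i r z - h i| ≤ ε := fun i => (abs_le_nn (gr σ r z - h) i).trans Ge.rx
  have ae : ∀ i, |e i| ≤ 1 := fun i => by
    have := abs_le_nn e i
    rwa [nn_one Ge.ee] at this
  have ah : ∀ i, |h i| ≤ 1 := fun i => by
    have := abs_le_nn h i
    rwa [nn_one Ge.hh] at this
  have bU : ∀ i, |σ.D i u z| ≤ 2 := fun i => by
    have h1 := abs_add_le (σ.D i u z - e i) (e i)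
    rw [sub_add_cancel] at h1
    linarith [aU i, ae i]
  have bR : ∀ i, |σ.D i r z| ≤ 2 := fun i => by
    have h1 := abs_add_le (σ.D i r z - h i) (h i)
    rw [sub_add_cancel] at h1
    linarith [aR i, ah i]
  have δ0 : ∀ i : ι, 0 ≤ δ := fun i => (abs_nonneg _).trans (hu i i)
  refine ⟨K0, Φ2, hb, Ge.hh, Ge.ee, fun i => ?_, hs, fun i j => ?_⟩
  · have h1 := he_pt Ge (by linarith) G0 L1 L2 Φ0 e1 hw
    have h2 := abs_le_nn (h + e) i
    have h3 : |h i + e i| ≤ nn (h + e) := h2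
    linarith
  · -- the five errors
    have t1 : |(Φ₁ + G) * σ.D i (σ.D j u) z| ≤ ε₂ / 10 * K := by
      rw [abs_mul, abs_of_pos (by positivity : 0 < Φ₁ + G)]
      have h1 : (Φ₁ + G) * |σ.D i (σ.D j u) z| ≤ (2 * G) * (ε₂ / 20 * κ) := by
        refine mul_le_mul ?_ ((hu i j).trans hδ) (abs_nonneg _) (by positivity)
        have : κ * G ≤ 1 * G := mul_le_mul_of_nonneg_right (by linarith) G0.le
        linarith
      have h2 : ε₂ / 10 * (κ * G) ≤ ε₂ / 10 * K := mul_le_mul_of_nonneg_left hK (by positivity)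
      linarith
    have t2 : |Φ₂ * (σ.D i u z * σ.D j u z - e i * e j)| ≤ ε₂ / 5 * K := by
      have h1 : σ.D i u z * σ.D j u z - e i * e j =
          (σ.D i u z - e i) * σ.D j u z + e i * (σ.D j u z - e j) := by ring
      have h2 : |σ.D i u z * σ.D j u z - e i * e j| ≤ 3 * ε := by
        rw [h1]
        refine (abs_add_le _ _).trans ?_
        rw [abs_mul, abs_mul]
        have h3 : |σ.D i u z - e i| * |σ.D j u z| ≤ ε * 2 :=
          mul_le_mul (aU i) (bU j) (abs_nonneg _) ε0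
        have h4 : |e i| * |σ.D j u z - e j| ≤ 1 * ε :=
          mul_le_mul (ae i) (aU j) (abs_nonneg _) zero_le_one
        linarith
      rw [abs_mul, abs_of_nonneg Φ2]
      have h3 : Φ₂ * |σ.D i u z * σ.D j u z - e i * e j| ≤ 53 / 100 * K * (3 * ε) :=
        mul_le_mul hb h2 (abs_nonneg _) (by positivity)
      have h4 : 53 / 100 * K * (3 * ε) ≤ 53 / 100 * K * (3 * (ε₂ / 100)) :=
        mul_le_mul_of_nonneg_left (by linarith) (by positivity)
      have h5 : 0 ≤ K * ε₂ := by positivity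
      linarith
    have t3 : |K * (r z * σ.D i (σ.D j r) z - (dl i j - h i * h j))| ≤ ε₂ / 10 * K := by
      rw [abs_mul, abs_of_pos K0]
      have := mul_le_mul_of_nonneg_left (hr i j) K0.le
      linarith
    have t4 : |G * (L₁ * (σ.D i r z * σ.D j r z))| ≤ ε₂ / 5 * K := by
      rw [abs_mul, abs_mul, abs_mul, abs_of_pos G0]
      have h1 : |σ.D i r z| * |σ.D j r z| ≤ 2 * 2 :=
        mul_le_mul (bR i) (bR j) (abs_nonneg _) (by norm_num)
      have h2 : |L₁| * (|σ.D i r z| * |σ.D j r z|) ≤ ε₂ / 20 * κ * (2 * 2) :=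
        mul_le_mul hL₁ h1 (by positivity) (by positivity)
      have h3 := mul_le_mul_of_nonneg_left h2 G0.le
      have h4 : ε₂ / 5 * (κ * G) ≤ ε₂ / 5 * K := mul_le_mul_of_nonneg_left hK (by positivity)
      linarith
    have t5 : |G * ((σ.D i u z + L * σ.D i r z) * (σ.D j u z + L * σ.D j r z))| ≤
        ε₂ / 5 * K := by
      have h1 : ∀ i, |G * (σ.D i u z + L * σ.D i r z)| ≤ 2 * κ * G := fun i => by
        have h2 : G * (σ.D i u z + L * σ.D i r z) = gr σ W z i - Φ₁ * σ.D i u z := by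
          rw [e1]
          simp only [Pi.add_apply, Pi.smul_apply, smul_eq_mul, gr]
          ring
        rw [h2]
        refine (abs_sub _ _).trans ?_
        have h3 := abs_le_nn (gr σ W z) i
        rw [abs_mul, abs_of_nonneg Φ0]
        have h4 := mul_le_mul_of_nonneg_left (bU i) Φ0
        linarith
      have h2 : G * (G * ((σ.D i u z + L * σ.D i r z) * (σ.D j u z + L * σ.D j r z))) =
          G * (σ.D i u z + L * σ.D i r z) * (G * (σ.D j u z + L * σ.D j r z)) := by ring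
      have h3 : G * |G * ((σ.D i u z + L * σ.D i r z) * (σ.D j u z + L * σ.D j r z))| ≤
          G * (ε₂ / 5 * K) := by
        have h4 : G * |G * ((σ.D i u z + L * σ.D i r z) * (σ.D j u z + L * σ.D j r z))| =
            |G * (σ.D i u z + L * σ.D i r z)| * |G * (σ.D j u z + L * σ.D j r z)| := by
          rw [← abs_mul, ← h2]
          conv_rhs => rw [abs_mul, abs_of_pos G0]
        rw [h4]
        have h5 : |G * (σ.D i u z + L * σ.D i r z)| * |G * (σ.D j u z + L * σ.D j r z)| ≤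
            2 * κ * G * (2 * κ * G) :=
          mul_le_mul (h1 i) (h1 j) (abs_nonneg _) (by positivity)
        have h6 : 2 * κ * G * (2 * κ * G) = G * (4 * κ * (κ * G)) := by ring
        have h7 : 4 * κ * (κ * G) ≤ ε₂ / 5 * K :=
          mul_le_mul (by linarith) hK (by positivity) (by positivity)
        have h8 := mul_le_mul_of_nonneg_left h7 G0.le
        linarith
      exact le_of_mul_le_mul_left h3 G0
    have key : σ.D i (σ.D j W) z - (K * (dl i j - h i * h j) + Φ₂ * (e i * e j)) =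
        ((Φ₁ + G) * σ.D i (σ.D j u) z + Φ₂ * (σ.D i u z * σ.D j u z - e i * e j) +
        K * (r z * σ.D i (σ.D j r) z - (dl i j - h i * h j))) +
        G * (L₁ * (σ.D i r z * σ.D j r z)) +
        G * ((σ.D i u z + L * σ.D i r z) * (σ.D j u z + L * σ.D j r z)) := by
      have h1 : K * r z = G * L := by rw [hKd]; field_simp
      rw [DW]
      linear_combination (-(σ.D i (σ.D j r) z)) * h1
    rw [key]
    refine (abs_sub3 (abs_sub3 t1 t2 t3) t4 t5).trans ?_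
    have : 0 ≤ ε₂ * K := by positivity
    linarith

end pt

end Vale.Agent.P088.R2.H561.P
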